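import Vale.Agent.P317.Exchange
import Mathlib.Algebra.BigOperators.Group.Finset.Basic
import Mathlib.Combinatorics.Matroid.Basic
import Mathlib.Data.Finset.Powerset
import Mathlib.Tactic

namespace Vale.Agent.P317

open Set

variable {α : Type*}

theorem bad_card [Finite α] {M : Matroid α} {B : Set α} {r t : ℕ} (hB : M.IsBase B)
    (hr : B.ncard = r) (hg : ∀ S : Set α, S ⊆ M.E → S.ncard + t < r → M.Indep S) {f : α}
    (hf : f ∉ B) (hfE : f ∈ M.E) :
    {d | d ∈ B ∧ ¬ M.IsBase (insert f (B \ {d}))}.ncard ≤ t + 1 := by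
  have hC := hB.fundCircuit_isCircuit hfE hf
  set C := M.fundCircuit f B with hCdef
  have hfC : f ∈ C := M.mem_fundCircuit _ _
  have h1 : r ≤ C.ncard + t := by
    by_contra hlt
    push Not at hlt
    exact hC.not_indep (hg C hC.subset_ground hlt)
  have h2 : C \ {f} = C ∩ B := M.fundCircuit_sdiff_eq_inter hf
  have h3 : (C ∩ B).ncard + 1 = C.ncard := by
    rw [← h2]
    exact Set.ncard_sdiff_singleton_add_one hfC (Set.toFinite _)
  have h4 : (B \ C).ncard + (B ∩ C).ncard = B.ncard := by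
    rw [add_comm]
    exact Set.ncard_inter_add_ncard_sdiff_eq_ncard B C (Set.toFinite _)
  rw [Set.inter_comm] at h4
  have h5 : {d | d ∈ B ∧ ¬ M.IsBase (insert f (B \ {d}))} ⊆ B \ C := by
    rintro d ⟨hd, hnb⟩
    refine ⟨hd, fun hdC => hnb ?_⟩
    exact isBase_insert_of_mem_fundCircuit hB hf hfE hd hdC
  have h6 := Set.ncard_le_ncard h5 (Set.toFinite _)
  omega

theorem exists_close [Finite α] {M₁ M₂ : Matroid α} {r t : ℕ}
    (hE : M₁.E = Set.univ) (hr₁ : ∀ B, M₁.IsBase B → B.ncard = r)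
    (hg : ∀ S : Set α, S.ncard + t < r → M₁.Indep S)
    (hN : ∃ B, M₁.IsBase B ∧ M₂.IsBase B) {B : Set α} (hB : M₂.IsBase B) :
    ∃ B', (M₁.IsBase B' ∧ M₂.IsBase B') ∧ (B \ B').ncard ≤ 2 * t + 1 := by
  classical
  obtain ⟨B', ⟨hB'₁, hB'₂⟩, hmin⟩ := Set.exists_min_image
    {B' | M₁.IsBase B' ∧ M₂.IsBase B'} (fun B' => (B \ B').ncard) (Set.toFinite _) hN
  refine ⟨B', ⟨hB'₁, hB'₂⟩, ?_⟩
  by_contra hk
  push Not at hk
  obtain ⟨σ, hσi, hσ⟩ := exists_exch_matching hB hB'₂
  have hno : ∀ f ∈ B \ B', ∀ d ∈ B' \ B, M₁.IsBase (insert f (B' \ {d})) →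
      ¬ M₂.IsBase (insert f (B' \ {d})) := by
    intro f hf d hd h1 h2
    have := hmin _ ⟨h1, h2⟩
    have hsub : B \ insert f (B' \ {d}) ⊆ (B \ B') \ {f} := by
      rintro x ⟨hx, hx'⟩
      simp only [Set.mem_insert_iff, Set.mem_sdiff, Set.mem_singleton_iff, not_or, not_and,
        not_not] at hx' ⊢
      refine ⟨⟨hx, fun hxB' => ?_⟩, hx'.1⟩
      have := hx'.2 hxB'
      exact hd.2 (this ▸ hx)
    have h3 := Set.ncard_le_ncard hsub (Set.toFinite _)
    have h4 := Set.ncard_sdiff_singleton_add_one hf (Set.toFinite _)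

    omega
  have hbad : ∀ f : ↥(B \ B'), ¬ M₁.IsBase (insert (f : α) (B' \ {σ f})) := fun f h =>
    hno f f.2 (σ f) (hσ f).1 h (hσ f).2
  -- find a good pair
  have hpair : ∃ f₁ f₂ : ↥(B \ B'), f₁ ≠ f₂ ∧ M₁.IsBase (insert (f₁ : α) (B' \ {σ f₂})) ∧
      M₁.IsBase (insert (f₂ : α) (B' \ {σ f₁})) := by
    by_contra hcon
    push Not at hcon
    have : Fintype α := Fintype.ofFinite α
    have : Fintype ↥(B \ B') := Fintype.ofFinite _
    set k := (B \ B').ncard with hkdef
    have hkcard : Fintype.card ↥(B \ B') = k := by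
      rw [hkdef, ← Nat.card_coe_set_eq, Nat.card_eq_fintype_card]
    -- relation R f f' : σ f' is bad for f
    let R : ↥(B \ B') → ↥(B \ B') → Prop := fun f f' =>
      ¬ M₁.IsBase (insert (f : α) (B' \ {σ f'}))
    have hout : ∀ f, (Finset.univ.filter (fun f' => R f f')).card ≤ t + 1 := by
      intro f
      have h1 : ((Finset.univ.filter (fun f' => R f f')).image σ : Set α) ⊆
          {d | d ∈ B' ∧ ¬ M₁.IsBase (insert (f : α) (B' \ {d}))} := by
        intro d hd
        simp only [Finset.coe_image, Finset.coe_filter, Finset.mem_univ, true_and,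
          Set.mem_image, Set.mem_ofPred_eq] at hd
        obtain ⟨f', hf', rfl⟩ := hd
        exact ⟨(hσ f').1.1, hf'⟩
      have h2 := Set.ncard_le_ncard h1 (Set.toFinite _)
      rw [Set.ncard_coe_finset, Finset.card_image_of_injective _ hσi] at h2
      refine h2.trans ?_
      exact bad_card hB'₁ (hr₁ _ hB'₁) (fun S _ hS => hg S hS) f.2.2 (by rw [hE]; trivial)
    have hout' : ∀ f, (Finset.univ.filter (fun f' => f ≠ f' ∧ R f f')).card ≤ t := by
      intro f
      have h1 : Finset.univ.filter (fun f' => f ≠ f' ∧ R f f') =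
          (Finset.univ.filter (fun f' => R f f')).erase f := by
        ext f'
        simp only [Finset.mem_filter, Finset.mem_univ, true_and, Finset.mem_erase]
        constructor
        · rintro ⟨h, h'⟩; exact ⟨fun h'' => h h''.symm, h'⟩
        · rintro ⟨h, h'⟩; exact ⟨fun h'' => h h''.symm, h'⟩
      have h2 : f ∈ Finset.univ.filter (fun f' => R f f') := by
        simp only [Finset.mem_filter, Finset.mem_univ, true_and]
        exact hbad f
      rw [h1, Finset.card_erase_of_mem h2]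
      have := hout f
      omega
    let P := (Finset.univ : Finset (↥(B \ B') × ↥(B \ B'))).filter
      (fun p => p.1 ≠ p.2 ∧ R p.1 p.2)
    have hP : P.card ≤ k * t := by
      have h1 : P.card = ∑ f : ↥(B \ B'),
          (Finset.univ.filter (fun f' => f ≠ f' ∧ R f f')).card := by
        have := Finset.card_eq_sum_card_fiberwise (f := Prod.fst) (s := P)
          (t := (Finset.univ : Finset ↥(B \ B'))) (fun _ _ => Finset.mem_univ _)
        rw [this]
        refine Finset.sum_congr rfl (fun f _ => ?_)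
        refine Finset.card_bij (fun p _ => p.2) ?_ ?_ ?_
        · intro p hp
          simp only [P, Finset.mem_filter, Finset.mem_univ, true_and] at hp ⊢
          obtain ⟨⟨h1, h2⟩, rfl⟩ := hp
          exact ⟨h1, h2⟩
        · intro p hp q hq hpq
          simp only [P, Finset.mem_filter, Finset.mem_univ, true_and] at hp hq
          exact Prod.ext (hp.2.trans hq.2.symm) hpq
        · intro f' hf'
          simp only [Finset.mem_filter, Finset.mem_univ, true_and] at hf'
          refine ⟨(f, f'), ?_, rfl⟩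
          simp only [P, Finset.mem_filter, Finset.mem_univ, true_and]
          exact ⟨hf', trivial⟩
      rw [h1]
      calc ∑ f : ↥(B \ B'), (Finset.univ.filter (fun f' => f ≠ f' ∧ R f f')).card
          ≤ ∑ _f : ↥(B \ B'), t := Finset.sum_le_sum (fun f _ => hout' f)
        _ = k * t := by rw [Finset.sum_const, Finset.card_univ, hkcard, smul_eq_mul]
    have hoff : (Finset.univ : Finset (↥(B \ B') × ↥(B \ B'))).filter (fun p => p.1 ≠ p.2) ⊆
        P ∪ P.image Prod.swap := by
      intro p hp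
      simp only [Finset.mem_filter, Finset.mem_univ, true_and] at hp
      simp only [Finset.mem_union, P, Finset.mem_filter, Finset.mem_univ, true_and,
        Finset.mem_image]
      by_cases h : R p.1 p.2
      · exact Or.inl ⟨hp, h⟩
      · right
        refine ⟨(p.2, p.1), ⟨fun h' => hp h'.symm, ?_⟩, rfl⟩
        simp only [R, not_not] at h
        exact hcon p.1 p.2 hp h
    have hoffcard : ((Finset.univ : Finset (↥(B \ B') × ↥(B \ B'))).filter
        (fun p => p.1 ≠ p.2)).card = k * k - k := by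
      have := Finset.offDiag_card (Finset.univ : Finset ↥(B \ B'))
      rw [Finset.card_univ, hkcard] at this
      rw [← this]
      congr 1
      ext p
      simp [Finset.mem_offDiag]
    have h1 := Finset.card_le_card hoff
    have h2 := Finset.card_union_le P (P.image Prod.swap)
    have h3 : (P.image Prod.swap).card ≤ P.card := Finset.card_image_le
    rw [hoffcard] at h1
    have h4 : k * k - k ≤ 2 * (k * t) := by omega
    have h5 : k * k ≤ k * (2 * t + 1) := by
      have : 2 * (k * t) + k = k * (2 * t + 1) := by ring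
      omega
    have h6 : k ≤ 2 * t + 1 := Nat.le_of_mul_le_mul_left h5 (by omega)
    omega
  obtain ⟨f₁, f₂, hne, h12, h21⟩ := hpair
  have hσne : σ f₁ ≠ σ f₂ := fun h => hne (hσi h)
  have hfne : (f₁ : α) ≠ (f₂ : α) := fun h => hne (Subtype.ext h)
  have hM₂ : M₂.IsBase (insert (f₁ : α) ((insert (f₂ : α) (B' \ {σ f₂})) \ {σ f₁})) :=
    two_exchange hB'₂ (hσ f₁).1.1 (hσ f₂).1.1 hσne f₁.2.2 f₂.2.2 hfne (hσ f₁).2 (hσ f₂).2
      (hno f₁ f₁.2 (σ f₂) (hσ f₂).1 h12)
  have hM₁ : M₁.IsBase (insert (f₁ : α) ((insert (f₂ : α) (B' \ {σ f₁})) \ {σ f₂})) :=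
    two_exchange hB'₁ (hσ f₂).1.1 (hσ f₁).1.1 hσne.symm f₁.2.2 f₂.2.2 hfne h12 h21 (hbad f₁)
  have hσf : ∀ f f' : ↥(B \ B'), σ f ≠ (f' : α) := fun f f' h => f'.2.2 (h ▸ (hσ f).1.1)
  have hset : insert (f₁ : α) ((insert (f₂ : α) (B' \ {σ f₁})) \ {σ f₂}) =
      insert (f₁ : α) ((insert (f₂ : α) (B' \ {σ f₂})) \ {σ f₁}) := by
    ext x
    simp only [Set.mem_insert_iff, Set.mem_sdiff, Set.mem_singleton_iff]
    have h1 := hσf f₁ f₂
    have h2 := hσf f₂ f₂
    constructor
    · rintro (h | ⟨(h | ⟨h, h'⟩), h''⟩)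
      · exact Or.inl h
      · right; exact ⟨Or.inl h, by rw [h]; exact fun hh => h1 hh.symm⟩
      · right; exact ⟨Or.inr ⟨h, h''⟩, h'⟩
    · rintro (h | ⟨(h | ⟨h, h'⟩), h''⟩)
      · exact Or.inl h
      · right; exact ⟨Or.inl h, by rw [h]; exact fun hh => h2 hh.symm⟩
      · right; exact ⟨Or.inr ⟨h, h''⟩, h'⟩
  rw [hset] at hM₁
  have hfin := hmin _ ⟨hM₁, hM₂⟩

  have hsub : B \ insert (f₁ : α) ((insert (f₂ : α) (B' \ {σ f₂})) \ {σ f₁}) ⊆
      (B \ B') \ {(f₁ : α)} := by
    rintro x ⟨hx, hx'⟩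
    simp only [Set.mem_insert_iff, Set.mem_sdiff, Set.mem_singleton_iff, not_or, not_and,
      not_not] at hx' ⊢
    refine ⟨⟨hx, fun hxB' => ?_⟩, hx'.1⟩
    by_cases hx2 : x = σ f₂
    · exact (hσ f₂).1.2 (hx2 ▸ hx)
    · have := hx'.2 (Or.inr ⟨hxB', hx2⟩)
      exact (hσ f₁).1.2 (this ▸ hx)
  have h3 := Set.ncard_le_ncard hsub (Set.toFinite _)
  have h4 := Set.ncard_sdiff_singleton_add_one f₁.2 (Set.toFinite _)
  omega

end Vale.Agent.P317
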