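import Vale.Agent.P317.Close

namespace Vale.Agent.P317

open Set

theorem card_near {n r : ℕ} (B' : Finset (Fin n)) (hB' : B'.card = r) (j : ℕ) :
    ((Finset.univ : Finset (Finset (Fin n))).filter
      (fun B => B.card = r ∧ (B \ B').card = j)).card ≤ r.choose j * (n - r).choose j := by
  classical
  have h1 : (B'.powersetCard j ×ˢ B'ᶜ.powersetCard j).card = r.choose j * (n - r).choose j := by
    rw [Finset.card_product, Finset.card_powersetCard, Finset.card_powersetCard, hB',
      Finset.card_compl, hB', Fintype.card_fin]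
  rw [← h1]
  refine Finset.card_le_card_of_injOn (fun B => (B' \ B, B \ B')) ?_ ?_
  · intro B hB
    simp only [Finset.coe_filter, Finset.mem_univ, true_and, Set.mem_ofPred_eq] at hB
    simp only [Finset.coe_product, Set.mem_prod, Finset.mem_coe, Finset.mem_powersetCard]
    refine ⟨⟨Finset.sdiff_subset, ?_⟩, ?_, hB.2⟩
    · have h2 := Finset.card_sdiff_add_card_inter B' B
      have h3 := Finset.card_sdiff_add_card_inter B B'
      rw [Finset.inter_comm] at h3
      omega
    · intro x hx
      rw [Finset.mem_sdiff] at hx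
      exact Finset.mem_compl.2 hx.2
  · intro B hB C hC hBC
    simp only [Prod.mk.injEq] at hBC
    obtain ⟨h2, h3⟩ := hBC
    ext x
    by_cases hx : x ∈ B'
    · have h4 : x ∈ B' \ B ↔ x ∈ B' \ C := by rw [h2]
      simp only [Finset.mem_sdiff, hx, true_and] at h4
      tauto
    · have h4 : x ∈ B \ B' ↔ x ∈ C \ B' := by rw [h3]
      simp only [Finset.mem_sdiff, hx, not_false_eq_true, and_true] at h4
      exact h4

theorem main {n r t : ℕ} (M₁ M₂ : Matroid (Fin n)) (hE₁ : M₁.E = Set.univ)
    (hr₁ : M₁.eRank = r) (hr₂ : M₂.eRank = r)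
    (hg : ∀ S : Set (Fin n), S.ncard + t < r → M₁.Indep S)
    (hN : ∃ B, M₁.IsBase B ∧ M₂.IsBase B) :
    (∀ B, M₂.IsBase B → ∃ B', (M₁.IsBase B' ∧ M₂.IsBase B') ∧ (B \ B').ncard ≤ 2 * t + 1) ∧
    {B | M₂.IsBase B}.ncard ≤
      (∑ j ∈ Finset.range (2 * t + 2), r.choose j * (n - r).choose j) *
        {B | M₁.IsBase B ∧ M₂.IsBase B}.ncard := by
  classical
  have hc : ∀ (M : Matroid (Fin n)), M.eRank = r → ∀ B, M.IsBase B → B.ncard = r := by
    intro M hM B hB
    have h1 := hB.encard_eq_eRank
    rw [hM, ← Set.Finite.cast_ncard_eq (Set.toFinite B)] at h1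
    exact_mod_cast h1
  have hclose : ∀ B, M₂.IsBase B →
      ∃ B', (M₁.IsBase B' ∧ M₂.IsBase B') ∧ (B \ B').ncard ≤ 2 * t + 1 := fun B hB =>
    exists_close hE₁ (hc M₁ hr₁) hg hN hB
  refine ⟨hclose, ?_⟩
  -- pass to finsets
  let T : Finset (Finset (Fin n)) :=
    Finset.univ.filter (fun B => M₂.IsBase (B : Set (Fin n)))
  let C : Finset (Finset (Fin n)) :=
    Finset.univ.filter (fun B => M₁.IsBase (B : Set (Fin n)) ∧ M₂.IsBase (B : Set (Fin n)))
  have hT : {B | M₂.IsBase B}.ncard = T.card := by
    rw [← Set.ncard_coe_finset, ← Set.ncard_image_of_injective (T : Set (Finset (Fin n)))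
      Finset.coe_injective]
    congr 1
    ext B
    simp only [T, Set.mem_ofPred_eq, Finset.coe_filter, Finset.mem_univ, true_and, Set.mem_image]
    constructor
    · intro h
      exact ⟨(Set.toFinite B).toFinset, by simpa using h, by simp⟩
    · rintro ⟨B, h, rfl⟩
      exact h
  have hC : {B | M₁.IsBase B ∧ M₂.IsBase B}.ncard = C.card := by
    rw [← Set.ncard_coe_finset, ← Set.ncard_image_of_injective (C : Set (Finset (Fin n)))
      Finset.coe_injective]
    congr 1
    ext B
    simp only [C, Set.mem_ofPred_eq, Finset.coe_filter, Finset.mem_univ, true_and, Set.mem_image]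
    constructor
    · intro h
      exact ⟨(Set.toFinite B).toFinset, by simpa using h, by simp⟩
    · rintro ⟨B, h, rfl⟩
      exact h
  rw [hT, hC]
  have hcov : T ⊆ C.biUnion (fun B' => (Finset.range (2 * t + 2)).biUnion (fun j =>
      (Finset.univ : Finset (Finset (Fin n))).filter
        (fun B => B.card = r ∧ (B \ B').card = j))) := by
    intro B hB
    simp only [T, Finset.mem_filter, Finset.mem_univ, true_and] at hB
    obtain ⟨B', ⟨h1, h2⟩, h3⟩ := hclose _ hB
    simp only [Finset.mem_biUnion, C, Finset.mem_filter, Finset.mem_univ, true_and,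
      Finset.mem_range]
    refine ⟨(Set.toFinite B').toFinset, ⟨by simpa using h1, by simpa using h2⟩,
      (B \ (Set.toFinite B').toFinset).card, ?_, ?_, rfl⟩
    · have h4 : (B : Set (Fin n)) \ B' =
          ((B \ (Set.toFinite B').toFinset : Finset (Fin n)) : Set (Fin n)) := by
        ext x; simp
      rw [h4, Set.ncard_coe_finset] at h3
      omega
    · have := hc M₂ hr₂ _ hB
      rwa [Set.ncard_coe_finset] at this
  calc T.card ≤ _ := Finset.card_le_card hcov
    _ ≤ ∑ B' ∈ C, ((Finset.range (2 * t + 2)).biUnion (fun j =>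
      (Finset.univ : Finset (Finset (Fin n))).filter
        (fun B => B.card = r ∧ (B \ B').card = j))).card := Finset.card_biUnion_le
    _ ≤ ∑ _B' ∈ C, ∑ j ∈ Finset.range (2 * t + 2), r.choose j * (n - r).choose j := by
        refine Finset.sum_le_sum (fun B' hB' => ?_)
        refine Finset.card_biUnion_le.trans (Finset.sum_le_sum (fun j _ => ?_))
        refine card_near B' ?_ j
        simp only [C, Finset.mem_filter, Finset.mem_univ, true_and] at hB'
        have := hc M₁ hr₁ _ hB'.1
        rwa [Set.ncard_coe_finset] at this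
    _ = _ := by rw [Finset.sum_const, smul_eq_mul, mul_comm]

end Vale.Agent.P317
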