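import Mathlib.Combinatorics.Matroid.Circuit
import Mathlib.Combinatorics.Matroid.Closure
import Mathlib.Combinatorics.Matroid.Rank.ENat
import Mathlib.Combinatorics.Hall.Basic
import Mathlib.Data.Set.Card

namespace Vale.Agent.P317

open Set

variable {α : Type*} {M : Matroid α} {B B' : Set α}

theorem exch_iff (hB : M.IsBase B) {d f : α} (hd : d ∈ B) (hf : f ∉ B) (hfE : f ∈ M.E) :
    M.IsBase (insert f (B \ {d})) ↔ f ∉ M.closure (B \ {d}) := by
  constructor
  · intro h hcl
    have h1 : M.Indep (insert f (B \ {d})) := h.indep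
    have h2 : f ∉ B \ {d} := fun h' => hf h'.1
    rw [(hB.indep.subset Set.sdiff_subset).insert_indep_iff] at h1
    rcases h1 with h1 | h1
    · exact h1.2 hcl
    · exact h2 h1
  · intro h
    exact hB.exchange_base_of_notMem_closure hd h hfE

theorem two_exchange (hB : M.IsBase B) {d₁ d₂ f₁ f₂ : α} (hd₁ : d₁ ∈ B) (hd₂ : d₂ ∈ B)
    (hd : d₁ ≠ d₂) (hf₁ : f₁ ∉ B) (hf₂ : f₂ ∉ B) (hf : f₁ ≠ f₂)
    (h11 : M.IsBase (insert f₁ (B \ {d₁}))) (h22 : M.IsBase (insert f₂ (B \ {d₂})))
    (h12 : ¬ M.IsBase (insert f₁ (B \ {d₂}))) :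
    M.IsBase (insert f₁ ((insert f₂ (B \ {d₂})) \ {d₁})) := by
  have hf₁E : f₁ ∈ M.E := h11.subset_ground (mem_insert _ _)
  have hf₂E : f₂ ∈ M.E := h22.subset_ground (mem_insert _ _)
  have hf₂d₁ : f₂ ≠ d₁ := fun h => hf₂ (h ▸ hd₁)
  have hmem : d₁ ∈ insert f₂ (B \ {d₂}) := mem_insert_of_mem _ ⟨hd₁, hd⟩
  have hnot : f₁ ∉ insert f₂ (B \ {d₂}) := by
    rintro (h | h)
    · exact hf h
    · exact hf₁ h.1
  rw [exch_iff h22 hmem hnot hf₁E]
  intro hcl
  have hset : (insert f₂ (B \ {d₂})) \ {d₁} = insert f₂ ((B \ {d₂}) \ {d₁}) := by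
    rw [Set.insert_sdiff_of_notMem]
    simpa using hf₂d₁
  rw [hset] at hcl
  have h1 : f₁ ∉ M.closure (B \ {d₁}) := (exch_iff hB hd₁ hf₁ hf₁E).1 h11
  have h2 : f₂ ∉ M.closure (B \ {d₂}) := (exch_iff hB hd₂ hf₂ hf₂E).1 h22
  have h3 : f₁ ∈ M.closure (B \ {d₂}) := by
    by_contra hc
    exact h12 ((exch_iff hB hd₂ hf₁ hf₁E).2 hc)
  have h4 : f₁ ∉ M.closure ((B \ {d₂}) \ {d₁}) := fun h =>
    h1 (M.closure_subset_closure (show (B \ {d₂}) \ {d₁} ⊆ B \ {d₁} from
      fun x hx => ⟨hx.1.1, hx.2⟩) h)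
  have h5 : f₂ ∈ M.closure (insert f₁ ((B \ {d₂}) \ {d₁})) :=
    (M.closure_exchange ⟨hcl, h4⟩).1
  have h6 : M.closure (insert f₁ ((B \ {d₂}) \ {d₁})) ⊆ M.closure (B \ {d₂}) := by
    apply M.closure_subset_closure_of_subset_closure
    rintro x (rfl | hx)
    · exact h3
    · exact M.mem_closure_of_mem' hx.1 (hB.subset_ground hx.1.1)
  exact h2 (h6 h5)

theorem isBase_insert_of_mem_fundCircuit (hB : M.IsBase B) {d f : α} (hf : f ∉ B)
    (hfE : f ∈ M.E) (hdB : d ∈ B) (hd : d ∈ M.fundCircuit f B) :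
    M.IsBase (insert f (B \ {d})) := by
  have hfcl : f ∈ M.closure B := by rw [hB.closure_eq]; exact hfE
  have h2 : M.Indep (insert f B \ {d}) := (hB.indep.mem_fundCircuit_iff hfcl hf).1 hd
  have hne : f ≠ d := fun h => hf (h ▸ hdB)
  have h3 : insert f B \ {d} = insert f (B \ {d}) := by
    rw [Set.insert_sdiff_of_notMem]
    simpa using hne
  rw [h3] at h2
  exact hB.exchange_isBase_of_indep hf h2

theorem exists_exch_matching [Finite α] (hB : M.IsBase B) (hB' : M.IsBase B') :
    ∃ σ : ↥(B \ B') → α, Function.Injective σ ∧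
      ∀ f : ↥(B \ B'), σ f ∈ B' \ B ∧ M.IsBase (insert (f : α) (B' \ {σ f})) := by
  classical
  have : Fintype α := Fintype.ofFinite α
  let t : ↥(B \ B') → Finset α := fun f =>
    Finset.univ.filter (fun d => d ∈ B' \ B ∧ M.IsBase (insert (f : α) (B' \ {d})))
  have hall : ∀ s : Finset ↥(B \ B'), s.card ≤ (s.biUnion t).card := by
    intro s
    set S : Set α := (fun f : ↥(B \ B') => (f : α)) '' (s : Set ↥(B \ B')) with hS
    set N : Set α := ((s.biUnion t : Finset α) : Set α) with hN
    have hNsub : N ⊆ B' \ B := by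
      intro d hd
      simp only [hN, Finset.coe_biUnion, Set.mem_iUnion, t, Finset.coe_filter,
        Finset.mem_univ, true_and, Set.mem_ofPred_eq, exists_prop] at hd
      obtain ⟨f, -, hd, -⟩ := hd
      exact hd
    have hSsub : S ⊆ B \ B' := by
      rintro _ ⟨f, -, rfl⟩
      exact f.2
    have hcl : S ∪ (B ∩ B') ⊆ M.closure (N ∪ (B ∩ B')) := by
      rintro x (hx | hx)
      · obtain ⟨f, hf, rfl⟩ := hx
        have hfB' : (f : α) ∉ B' := f.2.2
        have hfE : (f : α) ∈ M.E := hB.subset_ground f.2.1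
        have hfcl : (f : α) ∈ M.closure B' := by
          rw [hB'.closure_eq]; exact hfE
        have hC := hB'.indep.fundCircuit_isCircuit hfcl hfB'
        have hmem : (f : α) ∈ M.fundCircuit f B' := M.mem_fundCircuit _ _
        have h1 : (f : α) ∈ M.closure (M.fundCircuit f B' \ {(f : α)}) :=
          hC.mem_closure_sdiff_singleton_of_mem hmem
        refine M.closure_subset_closure ?_ h1
        rintro d ⟨hd, hdf⟩
        have hdB' : d ∈ B' := by
          have := M.fundCircuit_subset_insert (f : α) B' hd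
          rcases this with h | h
          · exact absurd h hdf
          · exact h
        by_cases hdB : d ∈ B
        · exact Or.inr ⟨hdB, hdB'⟩
        · left
          simp only [hN, Finset.coe_biUnion, Set.mem_iUnion, t, Finset.coe_filter,
            Finset.mem_univ, true_and, Set.mem_ofPred_eq, exists_prop]
          refine ⟨f, hf, ⟨hdB', hdB⟩, ?_⟩
          have h2 : M.Indep (insert (f : α) B' \ {d}) :=
            (hB'.indep.mem_fundCircuit_iff hfcl hfB').1 hd
          have hne : (f : α) ≠ d := fun h => hfB' (h ▸ hdB')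
          have h3 : insert (f : α) B' \ {d} = insert (f : α) (B' \ {d}) := by
            rw [Set.insert_sdiff_of_notMem]
            simpa using hne
          rw [h3] at h2
          exact hB'.exchange_isBase_of_indep hfB' h2
      · exact M.mem_closure_of_mem' (Or.inr hx) (hB.subset_ground hx.1)
    have hindep : M.Indep (S ∪ (B ∩ B')) := hB.indep.subset (by
      rintro x (hx | hx)
      · exact (hSsub hx).1
      · exact hx.1)
    have hindep' : M.Indep (N ∪ (B ∩ B')) := hB'.indep.subset (by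
      rintro x (hx | hx)
      · exact (hNsub hx).1
      · exact hx.2)
    have hle : (S ∪ (B ∩ B')).encard ≤ (N ∪ (B ∩ B')).encard := by
      calc (S ∪ (B ∩ B')).encard = M.eRk (S ∪ (B ∩ B')) := hindep.eRk_eq_encard.symm
        _ ≤ M.eRk (M.closure (N ∪ (B ∩ B'))) := M.eRk_mono hcl
        _ = M.eRk (N ∪ (B ∩ B')) := M.eRk_closure_eq _
        _ = (N ∪ (B ∩ B')).encard := hindep'.eRk_eq_encard
    have hd1 : Disjoint S (B ∩ B') := by
      rw [Set.disjoint_left]
      intro x hx hx'
      exact (hSsub hx).2 hx'.2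
    have hd2 : Disjoint N (B ∩ B') := by
      rw [Set.disjoint_left]
      intro x hx hx'
      exact (hNsub hx).2 hx'.1
    rw [Set.encard_union_eq hd1, Set.encard_union_eq hd2] at hle
    have hfin : (B ∩ B').encard ≠ ⊤ := by
      rw [Set.encard_ne_top_iff]; exact Set.toFinite _
    have hle' : S.encard ≤ N.encard := by
      exact (ENat.add_le_add_iff_right hfin).1 hle
    have hSc : S.encard = s.card := by
      rw [hS, Subtype.val_injective.encard_image]
      exact Set.encard_coe_eq_coe_finsetCard s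
    have hNc : N.encard = (s.biUnion t).card := by
      rw [hN]; exact Set.encard_coe_eq_coe_finsetCard _
    rw [hSc, hNc] at hle'
    exact_mod_cast hle'
  obtain ⟨σ, hσi, hσ⟩ := (Finset.all_card_le_biUnion_card_iff_exists_injective t).1 hall
  refine ⟨σ, hσi, fun f => ?_⟩
  have := hσ f
  simpa [t] using this

end Vale.Agent.P317
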